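import Vale.Agent.P372.FULL.Main

open Matrix
open scoped ComplexOrder

namespace Vale.Agent.Results.P372.EntangledZeroKey

open Vale.Agent.P372

theorem result :
    ∃ (a b : ℕ) (ρ : Matrix (Fin a × Fin b) (Fin a × Fin b) ℂ), ρ.PosSemidef ∧ ρ.trace = 1 ∧
      ¬ IsSep ρ ∧ ∀ (E : Type) [Fintype E] [DecidableEq E] (Ψ : Matrix (Fin a × Fin b) E ℂ),
        Ψ * Ψᴴ = ρ → distillableKey Ψ = 0 :=
  Vale.Agent.P372.FULL.main

end Vale.Agent.Results.P372.EntangledZeroKey
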