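import Vale.Agent.P372.H625.Spec
import Vale.Agent.P372.H625.Sep
import Vale.Agent.P372.H625.Fam
import Vale.Agent.P372.H625.FamPsd
import Vale.Agent.P372.H625.Dist
import Vale.Agent.P372.H625.Open
import Vale.Agent.P372.H625.Smooth4
import Vale.Agent.P372.H625.Compact
import Vale.Agent.P372.H625.Detect

open Matrix Kronecker
open scoped ComplexOrder MatrixOrder

namespace Vale.Agent.Results.P372.FreeExponent

open Vale.Agent.P372 Vale.Agent.P372.H625

theorem golden {k : ℝ} (hk : (√5 - 1) / 2 < k) : 0 < k ∧ 1 - k ^ 2 < k := by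
  have h5 : √5 ^ 2 = 5 := Real.sq_sqrt (by norm_num)
  have h1 : 1 < √5 := by
    rw [Real.lt_sqrt (by norm_num)]
    norm_num
  have h2 : 0 < k := by linarith
  refine ⟨h2, ?_⟩
  have h3 : 0 < (k - (√5 - 1) / 2) * (k + (√5 + 1) / 2) := mul_pos (by linarith) (by linarith)
  nlinarith

theorem result :
    -- (1) the test with free exponents decides positivity of the rate, for any one pair of
    -- exponents of the closed square apart from its four corners
    (∀ (A B E : Type) [Fintype A] [DecidableEq A] [Fintype B] [DecidableEq B] [Fintype E]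
      [DecidableEq E] (Ψ : Matrix (A × B) E ℂ), (Ψ * Ψᴴ).trace = 1 →
      ∀ θ θ' : ℝ, 0 ≤ θ → θ ≤ 1 → 0 ≤ θ' → θ' ≤ 1 → (0 < θ ∧ θ < 1) ∨ (0 < θ' ∧ θ' < 1) →
        (0 < distillableKey Ψ ↔ ExpTest (Ψ * Ψᴴ) θ θ')) ∧
    -- (2) positivity of the rate is monotone under separable operations on several copies
    (∀ (A B A' B' K : Type) [Fintype A] [DecidableEq A] [Fintype B] [DecidableEq B] [Fintype A']
      [DecidableEq A'] [Fintype B'] [DecidableEq B'] [Fintype K] [DecidableEq K]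
      (ρ : Matrix (A × B) (A × B) ℂ) (ρ' : Matrix (A' × B') (A' × B') ℂ) (m : K → ℕ)
      (X : ∀ k, Matrix A' (Fin (m k) → A) ℂ) (Y : ∀ k, Matrix B' (Fin (m k) → B) ℂ),
      ρ.PosSemidef → ρ.trace = 1 → ρ'.trace = 1 →
      ρ' = ∑ k, filtered (m k) ρ (X k) (Y k) → KeyPos ρ' → KeyPos ρ) ∧
    (∀ (A B : Type) [Fintype A] [DecidableEq A] [Fintype B] [DecidableEq B],
      -- (3) let `σ` be a separable state of full rank with exactly one witness `W`, up to factors;
      -- `σ` is a limit of states with key if and only if key can be distilled from all states, in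
      -- any dimensions, that some filter on copies brings to a state detected by `W`
      (∀ σ W : Matrix (A × B) (A × B) ℂ, IsSep σ → σ.PosDef → σ.trace = 1 → OnlyWitness W σ →
        (σ ∈ closure {ρ | ρ.PosSemidef ∧ ρ.trace = 1 ∧ KeyPos ρ} ↔
        ∀ (A' B' : Type) [Fintype A'] [DecidableEq A'] [Fintype B'] [DecidableEq B'] (n : ℕ)
          (ω : Matrix (A' × B') (A' × B') ℂ) (X : Matrix A (Fin n → A') ℂ)
          (Y : Matrix B (Fin n → B') ℂ), ω.PosSemidef → ω.trace = 1 →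
          (W * filtered n ω X Y).trace.re < 0 → KeyPos ω)) ∧
      -- `Q1` on `A ⊗ B` holds if and only if all such states `σ` with maximally mixed marginals are
      -- limits of states with key
      ((∀ σ W : Matrix (A × B) (A × B) ℂ, IsSep σ → σ.trace = 1 → σ.PosDef → MaxMixed σ →
          OnlyWitness W σ → σ ∈ closure {ρ | ρ.PosSemidef ∧ ρ.trace = 1 ∧ KeyPos ρ}) ↔
        ∀ ρ : Matrix (A × B) (A × B) ℂ, ρ.PosSemidef → ρ.trace = 1 → ¬ IsSep ρ → KeyPos ρ) ∧
      -- the same for PPT states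
      ((∀ σ W : Matrix (A × B) (A × B) ℂ, IsSep σ → σ.trace = 1 → σ.PosDef →
          (pTrans σ).PosDef → MaxMixed σ → OnlyWitness W σ →
          σ ∈ closure {ρ | ρ.PosSemidef ∧ ρ.trace = 1 ∧ KeyPos ρ}) ↔
        ∀ ρ : Matrix (A × B) (A × B) ℂ, ρ.PosSemidef → (pTrans ρ).PosSemidef → ρ.trace = 1 →
          ¬ IsSep ρ → KeyPos ρ) ∧
      -- (4) exchange of quantifiers: all entangled states of a closed set `S` have key if and only
      -- if at each distance from the separable states one class `C N` of protocols suffices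
      (∀ (ε : ℝ) (S : Set (Matrix (A × B) (A × B) ℂ)) (C : ℕ → Set (Proto A B)), 0 < ε →
        ε ≤ 1 / 64 → IsClosed S → Monotone C → (∀ π, ∃ N, π ∈ C N) →
        ((∀ ρ ∈ S, ρ.PosSemidef → ρ.trace = 1 → ¬ IsSep ρ → KeyPos ρ) ↔
          ∀ δ : ℝ, 0 < δ → ∃ N : ℕ, ∀ Ψ : Matrix (A × B) (A × B) ℂ, Ψ * Ψᴴ ∈ S →
            (Ψ * Ψᴴ).trace = 1 → FarFromSep δ (Ψ * Ψᴴ) → ∃ π ∈ C N, π.Works ε Ψ))) ∧
    -- (5) all NPT states in dimensions with `min p q ≤ d` have key if and only if one separable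
    -- state, `(1 - F / d) / (d ^ 2 - 1)`, is a limit of states with key
    (∀ (D : Type) [Fintype D] [DecidableEq D], 2 ≤ Fintype.card D → IsSep (wernerPt D) ∧
      (wernerPt D ∈ closure {ρ | ρ.PosSemidef ∧ ρ.trace = 1 ∧ KeyPos ρ} ↔
        ∀ (A B : Type) [Fintype A] [DecidableEq A] [Fintype B] [DecidableEq B],
          Fintype.card A ≤ Fintype.card D ∨ Fintype.card B ≤ Fintype.card D →
          ∀ ρ : Matrix (A × B) (A × B) ℂ, ρ.PosSemidef → ρ.trace = 1 →
            ¬ (pTrans ρ).PosSemidef → KeyPos ρ)) ∧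
    -- (6) a family of PPT entangled states of full rank with positive key
    (∀ k c : ℝ, (√5 - 1) / 2 < k → k < 1 → 0 < c → ∃ e₀ : ℝ, 0 < e₀ ∧
      ∀ e g : ℝ, 0 < e → e < e₀ → (k * e) ^ 2 < g → g ≤ c * e ^ 2 →
        (famState k e g).PosDef ∧ (pTrans (famState k e g)).PosDef ∧
        (famState k e g).trace = 1 ∧ ¬ IsSep (famState k e g) ∧ KeyPos (famState k e g)) := by
  refine ⟨?_, ?_, ?_, fun D _ _ hd => ⟨werner_sep hd, werner_iff hd⟩, ?_⟩
  · intro A B E _ _ _ _ _ _ Ψ hΨ θ θ' h0 h1 h0' h1' hi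
    exact ⟨pos_test Ψ hΨ h0 h1 h0' h1' hi, test_pos Ψ hΨ h0 h1 h0' h1'⟩
  · intro A B A' B' K _ _ _ _ _ _ _ _ _ _ ρ ρ' m X Y hρ h1 h1' hsum h
    exact keyPos_sepOp hρ h1 h1' m X Y hsum h
  · intro A B _ _ _ _
    exact ⟨fun σ W hσ hpd h1 hW => detect_iff hσ hpd h1 hW, smooth_mm_iff.1, smooth_mm_iff.2,
      fun ε S C hε hε' hS hC hC' => uniform_iff hε hε' hS hC hC'⟩
  · intro k c hk hk1 hc
    obtain ⟨hk0, hgold⟩ := golden hk
    obtain ⟨e₀, he₀, H⟩ := fam_pos hk0 hk1 hgold hc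
    refine ⟨e₀, he₀, ?_⟩
    intro e g he hee hg hgc
    obtain ⟨h1, h2, h3⟩ := famState_props hk0 hk1 he hg
    have hg0 : 0 < g := (sq_nonneg _).trans_lt hg
    have hkey : KeyPos (famState k e g) := by
      intro E _ _ Ψ hΨ
      refine H e g _ he hee hg0.le hgc (by positivity : 0 < (3 * (1 + e + g))⁻¹) Ψ ?_ ?_
      · rw [hΨ, h3]
      · rw [hΨ, famState]
    refine ⟨h1, h2, h3, ?_, hkey⟩
    intro hs
    obtain ⟨R, hR⟩ := exists_eq_conjTranspose_mul_self h1.posSemidef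
    have hR' : Rᴴ * Rᴴᴴ = famState k e g := by rw [conjTranspose_conjTranspose, ← hR]
    have h4 := hkey _ Rᴴ hR'
    refine not_sep_of_pos Rᴴ ?_ h4 ?_
    · rw [hR', h3]
    · rw [hR']
      exact hs

end Vale.Agent.Results.P372.FreeExponent
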