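import Vale.Agent.P372.H750.Ker

open Matrix Kronecker
open scoped ComplexOrder MatrixOrder

namespace Vale.Agent.Results.P372.NestedKernel

open Vale.Agent.P372 Vale.Agent.P372.H750

theorem result :
    -- (1) the criterion in all dimensions, for any number of copies
    (∀ (A B : Type) [Fintype A] [DecidableEq A] [Fintype B] [DecidableEq B]
      (ρ : Matrix (A × B) (A × B) ℂ), ρ.trace = 1 →
      ∀ (m : ℕ) (X : Matrix (Fin m → A) (Fin m → A) ℂ) (Y : Matrix (Fin m → B) (Fin m → B) ℂ),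
      0 < m → X.IsHermitian → Y.IsHermitian → 0 < (tpow m ρ * (X ⊗ₖ Y)).trace.re →
      NoStuck (LinearMap.range (tpow m ρ).mulVecLin) X Y → KeyPos ρ) ∧
    -- (2) two product vectors in the kernel
    (∀ (A B : Type) [Fintype A] [DecidableEq A] [Fintype B] [DecidableEq B]
      (ρ : Matrix (A × B) (A × B) ℂ), Fintype.card B ≤ 4 → ρ.trace = 1 →
      ∀ (a a' : A → ℂ) (b b' : B → ℂ), ρ *ᵥ prodVec a b = 0 → ρ *ᵥ prodVec a' b' = 0 →
      LinearIndependent ℂ ![b, b'] →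
      (∃ y z : B → ℂ, sprod (prodVec a' y) (ρ *ᵥ prodVec a z) ≠ 0) →
      (∀ (α : A → ℂ) (β : B → ℂ), prodVec α β ∈ LinearMap.range ρ.mulVecLin → sprod b β = 0 →
        sprod b' β = 0 → prodVec α β = 0) → KeyPos ρ) ∧
    -- (3) an unextendible set of product vectors in the kernel
    (∀ (A B : Type) [Fintype A] [DecidableEq A] [Fintype B] [DecidableEq B]
      (ρ : Matrix (A × B) (A × B) ℂ), Fintype.card B ≤ 4 → ρ.trace = 1 →
      (∀ (α : A → ℂ) (β : B → ℂ), (∀ (a : A → ℂ) (b : B → ℂ), ρ *ᵥ prodVec a b = 0 →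
        sprod (prodVec a b) (prodVec α β) = 0) → prodVec α β = 0) → KeyPos ρ) := by
  refine ⟨?_, ?_, ?_⟩
  · intro A B _ _ _ _ ρ hρ m X Y hm hX hY hc hW
    exact keyPos_of_noStuck ρ hρ hm hX hY hc hW
  · rintro A B _ _ _ _ ρ hB hρ a a' b b' h0 h1 hbb ⟨y, z, hne⟩ hces E _ _ Ψ hΨ
    subst hΨ
    rw [self_mul_conjTranspose_mulVec_eq_zero] at h0 h1
    refine pos_of_pair' hB Ψ hρ h0 h1 hbb (fun v α β h e0 e1 => ?_) hne
    rw [h]
    refine hces α β ?_ e0 e1
    rw [← h]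
    exact range_mul_conjTranspose Ψ ⟨v, rfl⟩
  · intro A B _ _ _ _ ρ hB hρ hU E _ _ Ψ hΨ
    subst hΨ
    exact kernel_unextendible4 hB Ψ hρ hU

end Vale.Agent.Results.P372.NestedKernel
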