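import Vale.Agent.P372.R4.Fin
import Vale.Agent.P372.R4.All4

open Matrix Kronecker
open scoped ComplexOrder MatrixOrder

namespace Vale.Agent.Results.P372.RankFour

open Vale.Agent.P372 Vale.Agent.P372.R4

theorem result :
    -- (1) a product vector in the kernel and a rank condition
    (∀ (A B : Type) [Fintype A] [DecidableEq A] [Fintype B] [DecidableEq B]
      (ρ : Matrix (A × B) (A × B) ℂ), ρ.PosSemidef → ρ.trace = 1 →
      ∀ (a : A → ℂ) (b : B → ℂ), ρ *ᵥ prodVec a b = 0 →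
      ρ.rank ≤ (bl a ρ).rank + (br b ρ).rank → KeyPos ρ ∨ IsSep ρ) ∧
    -- (2) rank at most the sum of the local ranks minus two
    (∀ (A B : Type) [Fintype A] [DecidableEq A] [Fintype B] [DecidableEq B]
      (ρ : Matrix (A × B) (A × B) ℂ), ρ.PosSemidef → ρ.trace = 1 →
      ρ.rank + 2 ≤ (redA ρ).rank + (redB ρ).rank →
      (∀ a ∈ LinearMap.range (redA ρ).mulVecLin, a ≠ 0 →
        ∀ v ∈ LinearMap.range (redB ρ).mulVecLin, ∀ w ∈ LinearMap.range (redB ρ).mulVecLin,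
        v ≠ 0 → ρ *ᵥ prodVec a v = 0 → ρ *ᵥ prodVec a w = 0 → ∃ c : ℂ, w = c • v) →
      (∀ b ∈ LinearMap.range (redB ρ).mulVecLin, b ≠ 0 →
        ∀ v ∈ LinearMap.range (redA ρ).mulVecLin, ∀ w ∈ LinearMap.range (redA ρ).mulVecLin,
        v ≠ 0 → ρ *ᵥ prodVec v b = 0 → ρ *ᵥ prodVec w b = 0 → ∃ c : ℂ, w = c • v) →
      KeyPos ρ ∨ IsSep ρ) ∧
    -- (3) PPT states of rank at most one more than a local rank
    (∀ (A B : Type) [Fintype A] [DecidableEq A] [Fintype B] [DecidableEq B]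
      (ρ : Matrix (A × B) (A × B) ℂ), ρ.PosSemidef → ρ.trace = 1 → (pTrans ρ).PosSemidef →
      ρ.rank ≤ (redB ρ).rank + 1 → 3 ≤ (redA ρ).rank → KeyPos ρ ∨ IsSep ρ ∨
      ∃ (F : Matrix A A ℂ) (G : Matrix B B ℂ), ¬ IsSep (fl F G ρ) ∧
        (redA (fl F G ρ)).rank ≤ 2 ∧ (fl F G ρ).rank = (redB (fl F G ρ)).rank + 1 ∧
        4 ≤ (redB (fl F G ρ)).rank ∧ (redB (fl F G ρ)).rank < (redB ρ).rank) ∧
    -- (4) all states of rank at most four
    (∀ (A B : Type) [Fintype A] [DecidableEq A] [Fintype B] [DecidableEq B]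
      (ρ : Matrix (A × B) (A × B) ℂ), ρ.PosSemidef → ρ.trace = 1 → ρ.rank ≤ 4 →
      KeyPos ρ ∨ IsSep ρ) := by
  refine ⟨?_, ?_, ?_, ?_⟩
  · intro A B _ _ _ _ ρ hr htr a b h hrk
    exact J2.thmJ2 ρ htr hr a b h hrk
  · intro A B _ _ _ _ ρ hr htr hrk h1 h2
    exact thmG_ker ρ htr hr h1 h2 hrk
  · intro A B _ _ _ _ ρ hr htr hp hrk hA
    rcases thmH ρ htr hr hp hrk with h | h | h | ⟨F, G, h1, h2, h3, h4⟩
    · exact Or.inl h
    · exact Or.inr (Or.inl h)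
    · omega
    · refine Or.inr (Or.inr ⟨F, G, h4, h1, h2, ?_, h3⟩)
      by_contra hcon
      exact h4 (sep_small (fl_psd hr F G) (fl_ppt hp F G) (by omega) (Or.inl h1))
  · intro A B _ _ _ _ ρ hr htr hrk
    exact rank_four_full ρ htr hr hrk

end Vale.Agent.Results.P372.RankFour
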